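import Vale.Agent.P230.Global

open Filter

namespace Vale.Agent.Results.P230.LowerNLogN

open Vale.Agent.P230

theorem result : ∃ c : ℝ, 0 < c ∧ ∀ᶠ n : ℕ in atTop,
    ENNReal.ofReal (c * n * Real.log n) ≤ ThetaT n ∧
      ENNReal.ofReal (c * n * Real.log n) ≤ ThetaL n := by
  refine ⟨1 / 10 ^ 11, by norm_num, lower.mono fun n ⟨K, hK, h1, h2⟩ => ⟨?_, ?_⟩⟩
  · exact le_iSup₂_of_le K hK h1
  · exact le_iSup₂_of_le K hK h2

end Vale.Agent.Results.P230.LowerNLogN
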