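import Vale.Agent.P230.Upper

open Filter

namespace Vale.Agent.Results.P230.ThetaNLogN

open Vale.Agent.P230

theorem result : ∃ c C : ℝ, 0 < c ∧ 0 < C ∧ ∀ᶠ n : ℕ in atTop,
    ENNReal.ofReal (c * n * Real.log n) ≤ ThetaT n ∧
      ThetaT n ≤ ENNReal.ofReal (C * n * Real.log n) ∧
      ENNReal.ofReal (c * n * Real.log n) ≤ ThetaL n := by
  refine ⟨1 / 10 ^ 11, 200, by norm_num, by norm_num,
    (lower.and (eventually_ge_atTop 3)).mono fun n ⟨⟨K, hK, h1, h2⟩, hn⟩ => ⟨?_, ?_, ?_⟩⟩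
  · exact le_iSup₂_of_le K hK h1
  · exact iSup₂_le fun K hK => upper hn hK
  · exact le_iSup₂_of_le K hK h2

end Vale.Agent.Results.P230.ThetaNLogN
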